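import Vale.Agent.P154.R4.T7.Ms

namespace Vale.Agent.P154

set_option maxRecDepth 1000000
set_option maxHeartbeats 4000000

def t7Bwp : P4 := lin4 10 3 2 1 0

theorem t7Bwp_ev (t0 t1 t2 t3 : ℝ) : ev4 t0 t1 t2 t3 t7Bwp = 10 * t0 + 3 * t1 + 2 * t2 + t3 := by
  rw [t7Bwp, ev4_lin]; push_cast; ring

end Vale.Agent.P154
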