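import Vale.Agent.P154.R4.Master2
import Vale.Agent.P154.R4.KronC
import Vale.Agent.P154.R4.ColsB
import Vale.Agent.P154.R4.Hor

namespace Vale.Agent.P154

set_option maxRecDepth 1000000
set_option maxHeartbeats 4000000

def ms7 : List Ex := [(0,0,0,7),(0,0,1,6),(0,0,2,5),(0,0,3,4),(0,0,4,3),(0,0,5,2),(0,0,6,1),(0,0,7,0),(0,1,0,6),(0,1,1,5),(0,1,2,4),(0,1,3,3),(0,1,4,2),(0,1,5,1),(0,1,6,0),(0,2,0,5),(0,2,1,4),(0,2,2,3),(0,2,3,2),(0,2,4,1),(0,2,5,0),(0,3,0,4),(0,3,1,3),(0,3,2,2),(0,3,3,1),(0,3,4,0),(0,4,0,3),(0,4,1,2),(0,4,2,1),(0,4,3,0),(0,5,0,2),(0,5,1,1),(0,5,2,0),(0,6,0,1),(0,6,1,0),(0,7,0,0),(1,0,0,6),(1,0,1,5),(1,0,2,4),(1,0,3,3),(1,0,4,2),(1,0,5,1),(1,0,6,0),(1,1,0,5),(1,1,1,4),(1,1,2,3),(1,1,3,2),(1,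1,4,1),(1,1,5,0),(1,2,0,4),(1,2,1,3),(1,2,2,2),(1,2,3,1),(1,2,4,0),(1,3,0,3),(1,3,1,2),(1,3,2,1),(1,3,3,0),(1,4,0,2),(1,4,1,1),(1,4,2,0),(1,5,0,1),(1,5,1,0),(1,6,0,0),(2,0,0,5),(2,0,1,4),(2,0,2,3),(2,0,3,2),(2,0,4,1),(2,0,5,0),(2,1,0,4),(2,1,1,3),(2,1,2,2),(2,1,3,1),(2,1,4,0),(2,2,0,3),(2,2,1,2),(2,2,2,1),(2,2,3,0),(2,3,0,2),(2,3,1,1),(2,3,2,0),(2,4,0,1),(2,4,1,0),(2,5,0,0),(3,0,0,4),(3,0,1,3),(3,0,2,2),(3,0,3,1),(3,0,4,0),(3,1,0,3),(3,1,1,2),(3,1,2,1),(3,1,3,0),(3,2,0,2),(3,2,1,1),(3,2,2,0),(3,3,0,1),(3,3,1,0),(3,4,0,0),(4,0,0,3),(4,0,1,2),(4,0,2,1),(4,0,3,0),(4,1,0,2),(4,1,1,1),(4,1,2,0),(4,2,0,1),(4,2,1,0),(4,3,0,0),(5,0,0,2),(5,0,1,1),(5,0,2,0),(5,1,0,1),(5,1,1,0),(5,2,0,0),(6,0,0,1),(6,0,1,0),(6,1,0,0),(7,0,0,0)]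

end Vale.Agent.P154
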